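import Mathlib

open Matrix Finset

namespace Vale.Agent.P084J

/-- In a finite-dimensional space the convex hull of a compact set is compact. -/
theorem isCompact_convexHull' {V : Type*} [AddCommGroup V] [Module ℝ V] [TopologicalSpace V]
    [IsTopologicalAddGroup V] [ContinuousSMul ℝ V] [FiniteDimensional ℝ V] {K : Set V}
    (hK : IsCompact K) : IsCompact (convexHull ℝ K) := by
  rcases K.eq_empty_or_nonempty with rfl | ⟨a, ha⟩
  · simp
  set N := Module.finrank ℝ V + 1 with hN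
  let φ : (Fin N → ℝ) × (Fin N → V) → V := fun p => ∑ i, p.1 i • p.2 i
  have hφ : Continuous φ := by
    refine continuous_finsetSum _ fun i _ => ?_
    exact ((continuous_apply i).comp continuous_fst).smul ((continuous_apply i).comp continuous_snd)
  have himg : φ '' (stdSimplex ℝ (Fin N) ×ˢ Set.pi Set.univ (fun _ => K)) = convexHull ℝ K := by
    apply Set.Subset.antisymm
    · rintro _ ⟨⟨w, z⟩, ⟨hw, hz⟩, rfl⟩
      refine mem_convexHull_of_exists_fintype w z hw.1 hw.2 ?_ rfl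
      intro i
      exact hz i (Set.mem_univ i)
    · intro x hx
      obtain ⟨ι, hι, z, w, hzK, hz, hw0, hw1, hx⟩ := eq_pos_convex_span_of_mem_convexHull hx
      have hcard : Fintype.card ι ≤ Fintype.card (Fin N) := by
        rw [Fintype.card_fin, hN]
        exact hz.card_le_finrank_succ.trans (by
          have := Submodule.finrank_le (vectorSpan ℝ (Set.range z))
          omega)
      obtain ⟨j⟩ := Function.Embedding.nonempty_of_card_le hcard
      refine ⟨(Function.extend j w 0, Function.extend j z (fun _ => a)), ⟨⟨?_, ?_⟩, ?_⟩, ?_⟩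
      · intro k
        by_cases hk : ∃ i, j i = k
        · obtain ⟨i, rfl⟩ := hk
          simp only [j.injective.extend_apply]
          exact (hw0 i).le
        · simp [Function.extend_apply' _ _ _ hk]
      · rw [← hw1]
        symm
        refine Fintype.sum_of_injective j j.injective _ _ ?_ ?_
        · intro k hk
          simp only
          rw [Function.extend_apply' _ _ _ (by simpa [Set.mem_range] using hk)]
          rfl
        · intro i
          simp only [j.injective.extend_apply]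
      · intro k _
        by_cases hk : ∃ i, j i = k
        · obtain ⟨i, rfl⟩ := hk
          simp only [j.injective.extend_apply]
          exact hzK ⟨i, rfl⟩
        · simp only [Function.extend_apply' _ _ _ hk]
          exact ha
      · rw [← hx]
        symm
        refine Fintype.sum_of_injective j j.injective _ _ ?_ ?_
        · intro k hk
          simp only
          rw [Function.extend_apply' _ _ _ (by simpa [Set.mem_range] using hk)]
          simp
        · intro i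
          simp only [j.injective.extend_apply]
  rw [← himg]
  exact ((isCompact_stdSimplex ℝ (Fin N)).prod (isCompact_univ_pi fun _ => hK)).image hφ

/-- Elementary inequality: if `(1-t)^k (1 + (a-1) t) ≤ 1` for all small `t ≥ 0` then `a ≤ k + 1`. -/
theorem le_of_pow_mul_le {k : ℕ} {a : ℝ}
    (h : ∀ t : ℝ, 0 ≤ t → t ≤ 1 → (1 - t) ^ k * (1 - t + t * a) ≤ 1) : a ≤ k + 1 := by
  by_contra hcon
  push Not at hcon
  have hk : (0 : ℝ) ≤ k := Nat.cast_nonneg k
  set t : ℝ := (a - k - 1) / (2 * ((k + 1) * a)) with ht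
  have ha : 0 < a := by linarith
  have hden : 0 < 2 * ((k + 1) * a) := by positivity
  have ht0 : 0 < t := div_pos (by linarith) hden
  have ht1 : t * (2 * ((k + 1) * a)) = a - k - 1 := by
    rw [ht]; field_simp
  have hka : t * ((k + 1) * a) < a - k - 1 := by nlinarith
  have htle : t * (k + 1) ≤ 1 := by
    have : t * (k + 1) * a ≤ 1 * a := by nlinarith
    exact le_of_mul_le_mul_right this ha
  have htle1 : t ≤ 1 := by nlinarith
  have hb : 1 - k * t ≤ (1 - t) ^ k := by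
    have := one_add_mul_le_pow (a := -t) (by linarith) k
    have e : (1 : ℝ) + -t = 1 - t := by ring
    rw [e] at this
    linarith
  have hpos : 0 < 1 - t + t * a := by nlinarith
  have h1 := h t ht0.le htle1
  have h2 : (1 - k * t) * (1 - t + t * a) ≤ 1 := (mul_le_mul_of_nonneg_right hb hpos.le).trans h1
  have h3 : t * (a - 1 - k - k * t * (a - 1)) ≤ 0 := by nlinarith
  have h4 : a - 1 - k - k * t * (a - 1) ≤ 0 := by
    by_contra hc
    push Not at hc
    nlinarith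
  have h5 : k * t * (a - 1) ≤ t * ((k + 1) * a) := by nlinarith [mul_nonneg ht0.le hk]
  linarith

theorem det_interp {n : ℕ} (η : Fin n → ℝ) {t : ℝ} (ht : t < 1) (hn : 0 < n) :
    ((1 - t) • (1 : Matrix (Fin n) (Fin n) ℝ) + t • vecMulVec η η).det
      = (1 - t) ^ (n - 1) * (1 - t + t * (η ⬝ᵥ η)) := by
  have h1 : (1 : ℝ) - t ≠ 0 := by linarith
  have e : (1 - t) • (1 : Matrix (Fin n) (Fin n) ℝ) + t • vecMulVec η η
      = (1 - t) • (1 + replicateCol Unit ((t / (1 - t)) • η) * replicateRow Unit η) := by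
    rw [smul_add]
    congr 1
    rw [← vecMulVec_eq, smul_vecMulVec, smul_smul]
    congr 1
    field_simp
  rw [e, det_smul, det_one_add_replicateCol_mul_replicateRow, Fintype.card_fin, dotProduct_smul,
    smul_eq_mul]
  obtain ⟨m, rfl⟩ : ∃ m, n = m + 1 := ⟨n - 1, by omega⟩
  simp only [Nat.add_sub_cancel]
  rw [pow_succ]
  field_simp

theorem john_core {n : ℕ} (hn : 0 < n) {B : Set (Fin n → ℝ)} (hB : IsCompact B) {δ : ℝ}
    (hδ : 0 < δ) (hBδ : ∀ i, δ • (Pi.single i (1 : ℝ) : Fin n → ℝ) ∈ B) :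
    ∃ (ι : Type) (_ : Fintype ι) (w : ι → ℝ) (ξ : ι → Fin n → ℝ) (C : Matrix (Fin n) (Fin n) ℝ),
      (∀ i, 0 ≤ w i) ∧ ∑ i, w i = 1 ∧ (∀ i, ξ i ∈ B) ∧ IsUnit C.det ∧
      ∑ i, w i • vecMulVec (ξ i) (ξ i) = Cᵀ * C ∧
      ∀ η, Cᵀ *ᵥ η ∈ B → η ⬝ᵥ η ≤ n := by
  set K : Set (Matrix (Fin n) (Fin n) ℝ) := (fun ξ => vecMulVec ξ ξ) '' B with hK
  have hcont : Continuous (fun ξ : Fin n → ℝ => vecMulVec ξ ξ) := by
    refine continuous_matrix fun i j => ?_
    simp only [vecMulVec_apply]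
    exact (continuous_apply i).mul (continuous_apply j)
  have hKc : IsCompact K := hB.image hcont
  have hHc := isCompact_convexHull' hKc
  have hBne : B.Nonempty := ⟨_, hBδ ⟨0, hn⟩⟩
  have hHne : (convexHull ℝ K).Nonempty := (hBne.image _).convexHull
  obtain ⟨G, hG, hmax⟩ := hHc.exists_isMaxOn hHne (f := fun M => M.det)
    (Continuous.matrix_det continuous_id).continuousOn
  -- positivity of the maximal determinant
  have hpos : 0 < G.det := by
    have hmem : (∑ i : Fin n, ((1 : ℝ) / n) •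
        vecMulVec (δ • (Pi.single i (1 : ℝ) : Fin n → ℝ)) (δ • (Pi.single i (1 : ℝ) : Fin n → ℝ)))
        ∈ convexHull ℝ K := by
      refine mem_convexHull_of_exists_fintype (fun _ => (1 : ℝ) / n) _ (fun _ => by positivity) ?_
        (fun i => ⟨_, hBδ i, rfl⟩) rfl
      simp only [sum_const, card_univ, Fintype.card_fin, nsmul_eq_mul]
      field_simp
    have heq : (∑ i : Fin n, ((1 : ℝ) / n) •
        vecMulVec (δ • (Pi.single i (1 : ℝ) : Fin n → ℝ)) (δ • (Pi.single i (1 : ℝ) : Fin n → ℝ)))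
        = (δ ^ 2 / n) • (1 : Matrix (Fin n) (Fin n) ℝ) := by
      ext a b
      rw [Matrix.sum_apply]
      simp only [Matrix.smul_apply, vecMulVec_apply, Pi.smul_apply, smul_eq_mul, Matrix.one_apply]
      rw [Finset.sum_eq_single a]
      · by_cases hab : a = b
        · subst hab
          simp only [Pi.single_eq_same, if_true]
          ring
        · rw [if_neg hab, Pi.single_eq_of_ne (Ne.symm hab)]
          ring
      · intro c _ hca
        rw [Pi.single_eq_of_ne (Ne.symm hca)]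
        ring
      · simp
    have := hmax hmem
    rw [heq] at this
    have h2 : 0 < ((δ ^ 2 / n) • (1 : Matrix (Fin n) (Fin n) ℝ)).det := by
      rw [det_smul, det_one, mul_one]
      positivity
    exact h2.trans_le this
  obtain ⟨ι, hι, w, Z, hw0, hw1, hZ, hZG⟩ := mem_convexHull_iff_exists_fintype.1 hG
  choose ξ hξB hξZ using hZ
  have hZ' : ∀ i, Z i = vecMulVec (ξ i) (ξ i) := fun i => (hξZ i).symm
  have hsum : ∑ i, w i • vecMulVec (ξ i) (ξ i) = G := by
    rw [← hZG]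
    exact Finset.sum_congr rfl fun i _ => by rw [hZ' i]
  have hPSD : G.PosSemidef := by
    rw [← hsum]
    refine posSemidef_sum _ fun i _ => ?_
    refine PosSemidef.smul ?_ (hw0 i)
    have := posSemidef_vecMulVec_self_star (ξ i)
    simpa using this
  open scoped MatrixOrder in
  obtain ⟨C, hC⟩ := CStarAlgebra.nonneg_iff_eq_star_mul_self.mp hPSD.nonneg
  have hC' : G = Cᵀ * C := by
    rw [hC, star_eq_conjTranspose, conjTranspose_eq_transpose_of_trivial]
  have hdet : G.det = C.det * C.det := by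
    rw [hC', det_mul, det_transpose]
  have hCne : C.det ≠ 0 := by
    intro h0
    rw [hdet, h0] at hpos
    simp at hpos
  refine ⟨ι, hι, w, ξ, C, hw0, hw1, hξB, isUnit_iff_ne_zero.2 hCne, hsum.trans hC', ?_⟩
  intro η hη
  have key : ∀ t : ℝ, 0 ≤ t → t ≤ 1 → (1 - t) ^ (n - 1) * (1 - t + t * (η ⬝ᵥ η)) ≤ 1 := by
    have base : ∀ t : ℝ, 0 ≤ t → t < 1 → (1 - t) ^ (n - 1) * (1 - t + t * (η ⬝ᵥ η)) ≤ 1 := by
      intro t ht0 ht1
      have hmem : (1 - t) • G + t • vecMulVec (Cᵀ *ᵥ η) (Cᵀ *ᵥ η) ∈ convexHull ℝ K :=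
        (convex_convexHull ℝ K) hG (subset_convexHull ℝ K ⟨_, hη, rfl⟩) (by linarith) ht0 (by ring)
      have h1 := hmax hmem
      have heq : (1 - t) • G + t • vecMulVec (Cᵀ *ᵥ η) (Cᵀ *ᵥ η)
          = Cᵀ * ((1 - t) • (1 : Matrix (Fin n) (Fin n) ℝ) + t • vecMulVec η η) * C := by
        have : vecMulVec (Cᵀ *ᵥ η) (Cᵀ *ᵥ η) = Cᵀ * vecMulVec η η * C := by
          rw [mul_vecMulVec, vecMulVec_mul]
          congr 1
          rw [mulVec_transpose]
        rw [this, hC', mul_add, add_mul, Matrix.mul_smul, mul_one, Matrix.smul_mul, Matrix.mul_smul, Matrix.smul_mul]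
      simp only [Set.mem_ofPred_eq] at h1
      rw [heq, det_mul, det_mul, det_transpose, det_interp η ht1 hn, hdet] at h1
      have h2 : 0 < C.det * C.det := by rw [← hdet]; exact hpos
      have h3 : (C.det * C.det) * ((1 - t) ^ (n - 1) * (1 - t + t * (η ⬝ᵥ η)))
          ≤ (C.det * C.det) * 1 := by nlinarith
      exact le_of_mul_le_mul_left h3 h2
    intro t ht0 ht1
    have hcl : IsClosed {t : ℝ | (1 - t) ^ (n - 1) * (1 - t + t * (η ⬝ᵥ η)) ≤ 1} :=
      isClosed_le (by fun_prop) continuous_const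
    have hsub : Set.Ico (0 : ℝ) 1 ⊆ {t : ℝ | (1 - t) ^ (n - 1) * (1 - t + t * (η ⬝ᵥ η)) ≤ 1} :=
      fun t ht => base t ht.1 ht.2
    have := closure_minimal hsub hcl
    rw [closure_Ico (by norm_num)] at this
    exact this ⟨ht0, ht1⟩
  have := le_of_pow_mul_le key
  have e : ((n - 1 : ℕ) : ℝ) + 1 = n := by
    have : 1 ≤ n := hn
    push_cast [this]
    ring
  linarith

theorem inner_eq_dot {n : ℕ} (x y : EuclideanSpace ℝ (Fin n)) :
    inner ℝ x y = x.ofLp ⬝ᵥ y.ofLp := by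
  rw [EuclideanSpace.inner_eq_star_dotProduct, dotProduct_comm]
  rfl

/-- **John (Loewner) position** of a finite-dimensional normed space. -/
theorem john (X : Type*) [NormedAddCommGroup X] [NormedSpace ℝ X] [FiniteDimensional ℝ X]
    [Nontrivial X] {n : ℕ} (hfin : Module.finrank ℝ X = n) :
    ∃ (e : X ≃L[ℝ] EuclideanSpace ℝ (Fin n)) (ι : Type) (_ : Fintype ι) (w : ι → ℝ)
      (ξ : ι → EuclideanSpace ℝ (Fin n)),
      (∀ i, 0 ≤ w i) ∧ ∑ i, w i = 1 ∧ (∀ i x, |inner ℝ (ξ i) (e x)| ≤ ‖x‖) ∧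
      (∀ x, ∑ i, (w i * inner ℝ (ξ i) x) • ξ i = x) ∧
      (∀ η : EuclideanSpace ℝ (Fin n), (∀ x, |inner ℝ η (e x)| ≤ ‖x‖) → ‖η‖ ^ 2 ≤ n) := by
  have hn : 0 < n := hfin ▸ Module.finrank_pos
  have e0 : X ≃L[ℝ] EuclideanSpace ℝ (Fin n) :=
    ContinuousLinearEquiv.ofFinrankEq (by rw [hfin, finrank_euclideanSpace_fin])
  -- the dual unit ball
  set BE : Set (EuclideanSpace ℝ (Fin n)) := {η | ∀ x, |inner ℝ η (e0 x)| ≤ ‖x‖} with hBE
  have hBEclosed : IsClosed BE := by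
    have : BE = ⋂ x : X, {η | |inner ℝ η (e0 x)| ≤ ‖x‖} := by
      ext η; simp [hBE]
    rw [this]
    exact isClosed_iInter fun x => isClosed_le (by fun_prop) continuous_const
  have hBEbdd : Bornology.IsBounded BE := by
    rw [isBounded_iff_forall_norm_le]
    refine ⟨‖(e0.symm : EuclideanSpace ℝ (Fin n) →L[ℝ] X)‖, fun η hη => ?_⟩
    have h1 := hη (e0.symm η)
    rw [e0.apply_symm_apply, real_inner_self_eq_norm_sq, abs_of_nonneg (by positivity)] at h1
    have h2 := (e0.symm : EuclideanSpace ℝ (Fin n) →L[ℝ] X).le_opNorm η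
    have h3 : ‖η‖ ^ 2 ≤ ‖(e0.symm : EuclideanSpace ℝ (Fin n) →L[ℝ] X)‖ * ‖η‖ := h1.trans h2
    by_cases h0 : ‖η‖ = 0
    · rw [h0]; positivity
    · have hp : 0 < ‖η‖ := lt_of_le_of_ne (norm_nonneg _) (Ne.symm h0)
      rw [pow_two] at h3
      exact le_of_mul_le_mul_right h3 hp
  have hBEc : IsCompact BE := Metric.isCompact_of_isClosed_isBounded hBEclosed hBEbdd
  set B : Set (Fin n → ℝ) := (fun η : EuclideanSpace ℝ (Fin n) => η.ofLp) '' BE with hB
  have hBc : IsCompact B := hBEc.image (PiLp.continuous_ofLp 2 _)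
  have hBmem : ∀ η : Fin n → ℝ, η ∈ B ↔ ∀ x, |η ⬝ᵥ (e0 x).ofLp| ≤ ‖x‖ := by
    intro η
    constructor
    · rintro ⟨η', hη', rfl⟩ x
      have := hη' x
      rwa [inner_eq_dot] at this
    · intro h
      refine ⟨WithLp.toLp 2 η, fun x => ?_, rfl⟩
      rw [inner_eq_dot]
      exact h x
  -- small coordinate vectors are in the dual ball
  obtain ⟨δ, hδ, hBδ⟩ : ∃ δ : ℝ, 0 < δ ∧ ∀ i, δ • (Pi.single i (1 : ℝ) : Fin n → ℝ) ∈ B := by
    refine ⟨(‖(e0 : X →L[ℝ] EuclideanSpace ℝ (Fin n))‖ + 1)⁻¹, by positivity, fun i => ?_⟩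
    rw [hBmem]
    intro x
    have h1 : |(e0 x).ofLp i| ≤ ‖e0 x‖ := by
      have := PiLp.norm_apply_le (e0 x) i
      simpa using this
    have h2 := (e0 : X →L[ℝ] EuclideanSpace ℝ (Fin n)).le_opNorm x
    rw [smul_dotProduct, single_dotProduct, one_mul, smul_eq_mul, abs_mul,
      abs_of_pos (by positivity), inv_mul_le_iff₀ (by positivity)]
    calc |(e0 x).ofLp i| ≤ ‖e0 x‖ := h1
      _ ≤ ‖(e0 : X →L[ℝ] EuclideanSpace ℝ (Fin n))‖ * ‖x‖ := h2
      _ ≤ _ := by nlinarith [norm_nonneg x]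
  obtain ⟨ι, hι, w, ξ, C, hw0, hw1, hξ, hC, hsum, hle⟩ := john_core hn hBc hδ hBδ
  have : Invertible C := invertibleOfIsUnitDet C hC
  have hCC : C * C⁻¹ = 1 := mul_nonsing_inv C hC
  have hCC' : C⁻¹ * C = 1 := nonsing_inv_mul C hC
  let eC : EuclideanSpace ℝ (Fin n) ≃ₗ[ℝ] EuclideanSpace ℝ (Fin n) :=
    (WithLp.linearEquiv 2 ℝ (Fin n → ℝ)).trans
      ((Matrix.toLinearEquiv' C inferInstance).trans (WithLp.linearEquiv 2 ℝ (Fin n → ℝ)).symm)
  have heC : ∀ v : EuclideanSpace ℝ (Fin n), (eC v).ofLp = C *ᵥ v.ofLp := fun v => rfl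
  refine ⟨e0.trans eC.toContinuousLinearEquiv, ι, hι, w,
    fun i => WithLp.toLp 2 ((C⁻¹)ᵀ *ᵥ ξ i), hw0, hw1, ?_, ?_, ?_⟩
  · intro i x
    have h1 := (hBmem _).1 (hξ i) x
    rw [inner_eq_dot]
    have : (((C⁻¹)ᵀ *ᵥ ξ i) ⬝ᵥ (C *ᵥ (e0 x).ofLp)) = ξ i ⬝ᵥ (e0 x).ofLp := by
      rw [mulVec_transpose, ← dotProduct_mulVec, mulVec_mulVec, hCC', one_mulVec]
    change |((C⁻¹)ᵀ *ᵥ ξ i) ⬝ᵥ (C *ᵥ (e0 x).ofLp)| ≤ ‖x‖
    rw [this]
    exact h1
  · intro x
    have hid : ∑ i, w i • vecMulVec ((C⁻¹)ᵀ *ᵥ ξ i) ((C⁻¹)ᵀ *ᵥ ξ i)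
        = (1 : Matrix (Fin n) (Fin n) ℝ) := by
      have h1 : ∀ i, w i • vecMulVec ((C⁻¹)ᵀ *ᵥ ξ i) ((C⁻¹)ᵀ *ᵥ ξ i)
          = (C⁻¹)ᵀ * (w i • vecMulVec (ξ i) (ξ i)) * C⁻¹ := by
        intro i
        rw [Matrix.mul_smul, Matrix.smul_mul, mul_vecMulVec, vecMulVec_mul]
        congr 2
        rw [mulVec_transpose]
      rw [Finset.sum_congr rfl fun i _ => h1 i, ← Finset.sum_mul, ← Finset.mul_sum, hsum,
        ← mul_assoc, ← transpose_mul, hCC, transpose_one, one_mul, hCC]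
    apply (WithLp.linearEquiv 2 ℝ (Fin n → ℝ)).injective
    rw [map_sum]
    have h2 : ∀ i, (WithLp.linearEquiv 2 ℝ (Fin n → ℝ))
        ((w i * inner ℝ (WithLp.toLp 2 ((C⁻¹)ᵀ *ᵥ ξ i) : EuclideanSpace ℝ (Fin n)) x) •
          (WithLp.toLp 2 ((C⁻¹)ᵀ *ᵥ ξ i) : EuclideanSpace ℝ (Fin n)))
        = (w i • vecMulVec ((C⁻¹)ᵀ *ᵥ ξ i) ((C⁻¹)ᵀ *ᵥ ξ i)) *ᵥ x.ofLp := by
      intro i
      rw [inner_eq_dot, map_smul]
      change (w i * (((C⁻¹)ᵀ *ᵥ ξ i) ⬝ᵥ x.ofLp)) • ((C⁻¹)ᵀ *ᵥ ξ i) = _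
      rw [smul_mulVec, vecMulVec_mulVec, ← smul_smul, op_smul_eq_smul]
    rw [Finset.sum_congr rfl fun i _ => h2 i, ← sum_mulVec, hid, one_mulVec]
    rfl
  · intro η hη
    have h1 : Cᵀ *ᵥ η.ofLp ∈ B := by
      rw [hBmem]
      intro x
      have h2 := hη x
      rw [inner_eq_dot] at h2
      change |η.ofLp ⬝ᵥ (C *ᵥ (e0 x).ofLp)| ≤ ‖x‖ at h2
      rwa [mulVec_transpose, ← dotProduct_mulVec]
    have h3 := hle _ h1
    rw [← real_inner_self_eq_norm_sq, inner_eq_dot]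
    exact h3

end Vale.Agent.P084J
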